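import Vale.Agent.P220.R2.H57.Ret

/-!
# A smooth neighbourhood retraction onto the complex Stiefel base
-/

open Set Filter Topology
open scoped ContDiff

namespace Vale.Agent.P220.R2.H762

open Vale.Agent.P220.R2.H57

/-- the complex Stiefel base: unit vectors `(x, y)` with `y` orthogonal to the complex line of `x` -/
def QJ {V : Type} [NormedAddCommGroup V] [InnerProductSpace ℝ V] (J : V ≃ₗᵢ[ℝ] V) :
    Set (WithLp 2 (V × V)) :=
  {x | ‖x.fst‖ ^ 2 + ‖x.snd‖ ^ 2 = 1 ∧ inner ℝ x.fst x.snd = (0 : ℝ) ∧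
    inner ℝ x.fst (J x.snd) = (0 : ℝ)}

/-- a smooth inverse square root -/
theorem invsqrt762 : ∃ g : ℝ → ℝ, ContDiff ℝ ∞ g ∧ ∀ t, 1 / 4 ≤ t → g t = (√t)⁻¹ := by
  set g : ℝ → ℝ := fun t => Real.smoothTransition (8 * t - 1) * (√t)⁻¹ with hg
  have hgs : ContDiff ℝ ∞ g := by
    rw [contDiff_iff_contDiffAt]
    intro t
    rcases lt_or_ge 0 t with ht | ht
    · have h1 : ContDiffAt ℝ ∞ (fun t : ℝ => √t) t := contDiffAt_id.sqrt ht.ne'
      have h2 : ContDiff ℝ ∞ fun t : ℝ => Real.smoothTransition (8 * t - 1) :=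
        Real.smoothTransition.contDiff.comp ((contDiff_const.mul contDiff_id).sub contDiff_const)
      exact h2.contDiffAt.mul (h1.inv (Real.sqrt_pos.2 ht).ne')
    · have h1 : g =ᶠ[𝓝 t] fun _ => 0 := by
        filter_upwards [Iio_mem_nhds (show t < 1 / 8 by linarith)] with x hx
        have : Real.smoothTransition (8 * x - 1) = 0 :=
          Real.smoothTransition.zero_of_nonpos (by rw [mem_Iio] at hx; linarith)
        simp only [hg, this, zero_mul]
      exact contDiffAt_const.congr_of_eventuallyEq h1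
  have hg1 : ∀ t, 1 / 4 ≤ t → g t = (√t)⁻¹ := by
    intro t ht
    have : Real.smoothTransition (8 * t - 1) = 1 :=
      Real.smoothTransition.one_of_one_le (by linarith)
    simp only [hg, this, one_mul]
  exact ⟨g, hgs, hg1⟩

section

variable {V : Type} [NormedAddCommGroup V] [InnerProductSpace ℝ V]

theorem inner_J (J : V ≃ₗᵢ[ℝ] V) (hJ : ∀ x, J (J x) = -x) (x y : V) :
    inner ℝ (J x) y = -(inner ℝ x (J y) : ℝ) := by
  have h := J.inner_map_map (J x) y
  rw [hJ, inner_neg_left] at h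
  linarith

theorem inner_JJ (J : V ≃ₗᵢ[ℝ] V) (x y : V) : inner ℝ (J x) (J y) = (inner ℝ x y : ℝ) :=
  J.inner_map_map x y

theorem inner_J_self (J : V ≃ₗᵢ[ℝ] V) (hJ : ∀ x, J (J x) = -x) (x : V) :
    inner ℝ x (J x) = (0 : ℝ) := by
  have h := inner_J J hJ x x
  rw [real_inner_comm] at h
  linarith

/-- the first inner product of the corrected pair -/
theorem inner_one (J : V ≃ₗᵢ[ℝ] V) (hJ : ∀ x, J (J x) = -x) (x y : V) (a b t N : ℝ)
    (ha : a = inner ℝ x y) (hb : b = inner ℝ x (J y)) (hN : N = ‖x‖ ^ 2 + ‖y‖ ^ 2) :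
    inner ℝ (x - t • (a • y + b • J y)) (y - t • (a • x - b • J x)) =
      a * (1 - t * N + t ^ 2 * (a ^ 2 + b ^ 2)) := by
  have h1 : inner ℝ x x = ‖x‖ ^ 2 := real_inner_self_eq_norm_sq x
  have h2 : inner ℝ y y = ‖y‖ ^ 2 := real_inner_self_eq_norm_sq y
  have h3 : inner ℝ y x = a := by rw [real_inner_comm, ha]
  have h4 : inner ℝ (J y) x = b := by rw [real_inner_comm, hb]
  have h5 : inner ℝ y (J x) = -b := by
    have h := inner_J J hJ y x
    rw [h4] at h
    linarith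
  have h6 : inner ℝ (J y) (J x) = a := by rw [inner_JJ, h3]
  have h7 := inner_J_self J hJ x
  have h8 : inner ℝ (J y) y = (0 : ℝ) := by rw [real_inner_comm]; exact inner_J_self J hJ y
  simp only [inner_sub_left, inner_sub_right, inner_add_left, inner_smul_left, inner_smul_right,
    conj_trivial, h1, h2, h3, h4, h5, h6, h7, h8, ← ha]
  rw [hN]
  ring

/-- the second inner product of the corrected pair -/
theorem inner_two (J : V ≃ₗᵢ[ℝ] V) (hJ : ∀ x, J (J x) = -x) (x y : V) (a b t N : ℝ)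
    (ha : a = inner ℝ x y) (hb : b = inner ℝ x (J y)) (hN : N = ‖x‖ ^ 2 + ‖y‖ ^ 2) :
    inner ℝ (x - t • (a • y + b • J y)) (J (y - t • (a • x - b • J x))) =
      b * (1 - t * N + t ^ 2 * (a ^ 2 + b ^ 2)) := by
  have h0 : J (y - t • (a • x - b • J x)) = J y - t • (a • J x + b • x) := by
    simp only [map_sub, map_smul, hJ]
    simp only [smul_neg, sub_neg_eq_add]
  rw [h0]
  have h1 : inner ℝ x x = ‖x‖ ^ 2 := real_inner_self_eq_norm_sq x
  have h2 : inner ℝ (J y) (J y) = ‖y‖ ^ 2 := by rw [inner_JJ]; exact real_inner_self_eq_norm_sq y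
  have h3 : inner ℝ y x = a := by rw [real_inner_comm, ha]
  have h4 : inner ℝ (J y) x = b := by rw [real_inner_comm, hb]
  have h5 : inner ℝ y (J x) = -b := by
    have h := inner_J J hJ y x
    rw [h4] at h
    linarith
  have h6 : inner ℝ (J y) (J x) = a := by rw [inner_JJ, h3]
  have h7 := inner_J_self J hJ x
  have h8 := inner_J_self J hJ y
  simp only [inner_sub_left, inner_sub_right, inner_add_left, inner_add_right, inner_smul_left,
    inner_smul_right, conj_trivial, h1, h2, h3, h4, h5, h6, h7, h8, ← hb]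
  rw [hN]
  ring

end

theorem row_ret {V : Type} [NormedAddCommGroup V] [InnerProductSpace ℝ V] [FiniteDimensional ℝ V]
    {J : V ≃ₗᵢ[ℝ] V} (hJ : ∀ x, J (J x) = -x) :
    ∃ (U : Set (WithLp 2 (V × V))) (r : WithLp 2 (V × V) → WithLp 2 (V × V)),
      IsRet (QJ J) U r := by
  obtain ⟨G, hGs, hG1⟩ := invsqrt762
  -- smoothness of the coordinates
  have s1 : ContDiff ℝ ∞ fun z : WithLp 2 (V × V) => z.fst :=
    (WithLp.prodContinuousLinearEquiv 2 ℝ V V).contDiff.fst
  have s2 : ContDiff ℝ ∞ fun z : WithLp 2 (V × V) => z.snd :=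
    (WithLp.prodContinuousLinearEquiv 2 ℝ V V).contDiff.snd
  have sJ : ContDiff ℝ ∞ fun x : V => J x := J.contDiff
  obtain ⟨a, ha⟩ : ∃ a : WithLp 2 (V × V) → ℝ, a = fun z => inner ℝ z.fst z.snd := ⟨_, rfl⟩
  obtain ⟨b, hb⟩ : ∃ b : WithLp 2 (V × V) → ℝ, b = fun z => inner ℝ z.fst (J z.snd) := ⟨_, rfl⟩
  obtain ⟨N, hN⟩ : ∃ N : WithLp 2 (V × V) → ℝ, N = fun z => ‖z.fst‖ ^ 2 + ‖z.snd‖ ^ 2 := ⟨_, rfl⟩
  obtain ⟨D, hD⟩ : ∃ D : WithLp 2 (V × V) → ℝ, D = fun z => N z ^ 2 - 4 * (a z ^ 2 + b z ^ 2) :=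
    ⟨_, rfl⟩
  obtain ⟨M, hM⟩ : ∃ M : WithLp 2 (V × V) → ℝ, M = fun z => N z + D z * G (D z) := ⟨_, rfl⟩
  obtain ⟨t, ht⟩ : ∃ t : WithLp 2 (V × V) → ℝ, t = fun z => 2 * G (M z) ^ 2 := ⟨_, rfl⟩
  obtain ⟨X, hX⟩ : ∃ X : WithLp 2 (V × V) → V,
    X = fun z => z.fst - t z • (a z • z.snd + b z • J z.snd) := ⟨_, rfl⟩
  obtain ⟨Y, hY⟩ : ∃ Y : WithLp 2 (V × V) → V,
    Y = fun z => z.snd - t z • (a z • z.fst - b z • J z.fst) := ⟨_, rfl⟩
  obtain ⟨L, hL⟩ : ∃ L : WithLp 2 (V × V) → ℝ, L = fun z => ‖X z‖ ^ 2 + ‖Y z‖ ^ 2 := ⟨_, rfl⟩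
  have sa : ContDiff ℝ ∞ a := by rw [ha]; exact s1.inner ℝ s2
  have sb : ContDiff ℝ ∞ b := by rw [hb]; exact s1.inner ℝ (sJ.comp s2)
  have sN : ContDiff ℝ ∞ N := by rw [hN]; exact (s1.norm_sq ℝ).add (s2.norm_sq ℝ)
  have sD : ContDiff ℝ ∞ D := by
    rw [hD]; exact (sN.pow 2).sub (contDiff_const.mul ((sa.pow 2).add (sb.pow 2)))
  have sM : ContDiff ℝ ∞ M := by rw [hM]; exact sN.add (sD.mul (hGs.comp sD))
  have st : ContDiff ℝ ∞ t := by rw [ht]; exact contDiff_const.mul ((hGs.comp sM).pow 2)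
  have sX : ContDiff ℝ ∞ X := by
    rw [hX]; exact s1.sub (st.smul ((sa.smul s2).add (sb.smul (sJ.comp s2))))
  have sY : ContDiff ℝ ∞ Y := by
    rw [hY]; exact s2.sub (st.smul ((sa.smul s1).sub (sb.smul (sJ.comp s1))))
  have sL : ContDiff ℝ ∞ L := by rw [hL]; exact (sX.norm_sq ℝ).add (sY.norm_sq ℝ)
  -- on the set `QJ`
  have hQ : ∀ z ∈ QJ J, a z = 0 ∧ b z = 0 ∧ N z = 1 ∧ D z = 1 ∧ M z = 2 ∧ t z = 1 ∧
      X z = z.fst ∧ Y z = z.snd ∧ L z = 1 := by
    rintro z ⟨h1, h2, h3⟩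
    have ea : a z = 0 := by rw [ha]; exact h2
    have eb : b z = 0 := by rw [hb]; exact h3
    have eN : N z = 1 := by rw [hN]; exact h1
    have eD : D z = 1 := by rw [hD]; simp only [ea, eb, eN]; norm_num
    have eM : M z = 2 := by
      rw [hM]
      simp only [eN, eD]
      rw [hG1 1 (by norm_num), Real.sqrt_one]
      norm_num
    have et : t z = 1 := by
      rw [ht]
      simp only [eM]
      rw [hG1 2 (by norm_num), inv_pow, Real.sq_sqrt (by norm_num)]
      norm_num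
    have eX : X z = z.fst := by rw [hX]; simp only [ea, eb, zero_smul, add_zero, smul_zero, sub_zero]
    have eY : Y z = z.snd := by rw [hY]; simp only [ea, eb, zero_smul, sub_zero, smul_zero]
    have eL : L z = 1 := by rw [hL]; simp only [eX, eY]; exact h1
    exact ⟨ea, eb, eN, eD, eM, et, eX, eY, eL⟩
  refine ⟨{z | 1 / 4 < D z ∧ 1 / 4 < M z ∧ 1 / 4 < L z},
    fun z => WithLp.toLp 2 (G (L z) • X z, G (L z) • Y z), ?_, ?_, ?_, ?_, ?_, ?_⟩
  · -- closed
    have h1 : IsClosed {z : WithLp 2 (V × V) | N z = 1} :=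
      isClosed_eq sN.continuous continuous_const
    have h2 : IsClosed {z : WithLp 2 (V × V) | a z = 0} :=
      isClosed_eq sa.continuous continuous_const
    have h3 : IsClosed {z : WithLp 2 (V × V) | b z = 0} :=
      isClosed_eq sb.continuous continuous_const
    have h4 : QJ J = {z | N z = 1} ∩ ({z | a z = 0} ∩ {z | b z = 0}) := by
      rw [hN, ha, hb]
      rfl
    rw [h4]
    exact h1.inter (h2.inter h3)
  · -- open
    exact (isOpen_lt continuous_const sD.continuous).inter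
      ((isOpen_lt continuous_const sM.continuous).inter (isOpen_lt continuous_const sL.continuous))
  · intro z hz
    obtain ⟨-, -, -, eD, eM, -, -, -, eL⟩ := hQ z hz
    refine ⟨?_, ?_, ?_⟩
    · rw [eD]; norm_num
    · rw [eM]; norm_num
    · rw [eL]; norm_num
  · exact (WithLp.prodContinuousLinearEquiv 2 ℝ V V).symm.contDiff.comp
      (((hGs.comp sL).smul sX).prodMk ((hGs.comp sL).smul sY))
  · -- the values
    rintro z ⟨h1, h2, h3⟩
    have hDpos : 0 < D z := by linarith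
    have hsq : D z * G (D z) = √(D z) := by
      rw [hG1 _ h1.le]
      have h := Real.mul_self_sqrt hDpos.le
      have h0 : √(D z) ≠ 0 := (Real.sqrt_pos.2 hDpos).ne'
      field_simp
      linarith
    have hMz : M z = N z + √(D z) := by rw [hM]; simp only [hsq]
    have hMpos : 0 < M z := by linarith
    have htz : t z * M z = 2 := by
      rw [ht]
      simp only
      rw [hG1 _ h2.le, inv_pow, Real.sq_sqrt hMpos.le]
      field_simp
    have hroot : 1 - t z * N z + t z ^ 2 * (a z ^ 2 + b z ^ 2) = 0 := by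
      have h4 : 4 * (a z ^ 2 + b z ^ 2) = N z ^ 2 - √(D z) ^ 2 := by
        rw [Real.sq_sqrt hDpos.le, hD]
        ring
      have h5 : √(D z) = M z - N z := by rw [hMz]; ring
      rw [h5] at h4
      have h6 : a z ^ 2 + b z ^ 2 = (N z ^ 2 - (M z - N z) ^ 2) / 4 := by linarith
      rw [h6]
      have h7 : 1 - t z * N z + t z ^ 2 * ((N z ^ 2 - (M z - N z) ^ 2) / 4) =
          1 - t z * N z + (t z * M z) * (2 * (t z * N z) - t z * M z) / 4 := by ring
      rw [h7, htz]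
      ring
    have hLpos : 0 < L z := by linarith
    have hg : G (L z) = (√(L z))⁻¹ := hG1 _ h3.le
    have hg2 : G (L z) ^ 2 * L z = 1 := by
      rw [hg, inv_pow, Real.sq_sqrt hLpos.le]
      exact inv_mul_cancel₀ hLpos.ne'
    have i1 := inner_one J hJ z.fst z.snd (a z) (b z) (t z) (N z) (by rw [ha]) (by rw [hb])
      (by rw [hN])
    have i2 := inner_two J hJ z.fst z.snd (a z) (b z) (t z) (N z) (by rw [ha]) (by rw [hb])
      (by rw [hN])
    rw [hroot, mul_zero] at i1 i2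
    have eX : X z = z.fst - t z • (a z • z.snd + b z • J z.snd) := by rw [hX]
    have eY : Y z = z.snd - t z • (a z • z.fst - b z • J z.fst) := by rw [hY]
    rw [← eX, ← eY] at i1 i2
    refine ⟨?_, ?_, ?_⟩
    · change ‖G (L z) • X z‖ ^ 2 + ‖G (L z) • Y z‖ ^ 2 = 1
      rw [norm_smul, norm_smul, mul_pow, mul_pow, ← mul_add, Real.norm_eq_abs, sq_abs]
      have eL : L z = ‖X z‖ ^ 2 + ‖Y z‖ ^ 2 := by rw [hL]
      rw [← eL]
      exact hg2
    · change inner ℝ (G (L z) • X z) (G (L z) • Y z) = (0 : ℝ)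
      rw [inner_smul_left, inner_smul_right, i1]
      simp
    · change inner ℝ (G (L z) • X z) (J (G (L z) • Y z)) = (0 : ℝ)
      rw [map_smul, inner_smul_left, inner_smul_right, i2]
      simp
  · intro z hz
    obtain ⟨-, -, -, -, -, -, eX, eY, eL⟩ := hQ z hz
    simp only [eX, eY, eL]
    rw [hG1 1 (by norm_num), Real.sqrt_one, inv_one, one_smul, one_smul]
    rfl

end Vale.Agent.P220.R2.H762
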